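/-
helper3 — S0112 (row 84), package A1–A4 of notes/s0112/PROOF.md (second, independent track):
calculus toolkit for a `Crest.OpAlg.LineCalculus`: the wave group, cut-offs, strong continuity
of `t ↦ D.wave t x`, and the `SupportedIn` API.  Mathlib + Prelude only.
-/
import Mathlib
import Crest.Prelude.Def_ModularData

set_option autoImplicit false

open Filter MeasureTheory Topology
open scoped InnerProductSpace

namespace Crest.Agent.Helper3.S0112

open Crest.OpAlg Crest.OpAlg.LineCalculus

variable {H : Type*} [NormedAddCommGroup H] [InnerProductSpace ℂ H] [CompleteSpace H]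

/-! ### A1: the calculus is contractive and commutative; the wave group -/

theorem norm_apply_le (D : LineCalculus H) (f : BoundedContinuousFunction ℝ ℂ) :
    ‖D.apply f‖ ≤ ‖f‖ :=
  NonUnitalStarAlgHom.norm_apply_le D.apply f

theorem norm_apply_apply_le (D : LineCalculus H) (f : BoundedContinuousFunction ℝ ℂ) (x : H) :
    ‖D.apply f x‖ ≤ ‖f‖ * ‖x‖ :=
  (ContinuousLinearMap.le_opNorm _ _).trans
    (mul_le_mul_of_nonneg_right (norm_apply_le D f) (norm_nonneg _))

theorem apply_comm (D : LineCalculus H) (f g : BoundedContinuousFunction ℝ ℂ) :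
    D.apply f * D.apply g = D.apply g * D.apply f := by
  rw [← map_mul, ← map_mul, mul_comm]

theorem apply_apply_comm (D : LineCalculus H) (f g : BoundedContinuousFunction ℝ ℂ) (x : H) :
    D.apply f (D.apply g x) = D.apply g (D.apply f x) := by
  have h := apply_comm D f g
  exact congrArg (fun A : H →L[ℂ] H => A x) h

theorem apply_mul_apply (D : LineCalculus H) (f g : BoundedContinuousFunction ℝ ℂ) (x : H) :
    D.apply (f * g) x = D.apply f (D.apply g x) := by
  rw [map_mul]; rfl

theorem character_apply (t u : ℝ) :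
    character t u = Complex.exp (Complex.I * ((t * u : ℝ) : ℂ)) := rfl

theorem character_zero : character 0 = 1 := by
  ext u
  simp [character_apply]

theorem character_add (s t : ℝ) : character (s + t) = character s * character t := by
  ext u
  simp only [character_apply, BoundedContinuousFunction.coe_mul, Pi.mul_apply]
  rw [← Complex.exp_add]
  congr 1
  push_cast
  ring

theorem star_character (t : ℝ) : star (character t) = character (-t) := by
  ext u
  simp only [character_apply, BoundedContinuousFunction.star_apply]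
  rw [Complex.star_def, ← Complex.exp_conj]
  congr 1
  simp [Complex.conj_ofReal]

theorem norm_character_apply (t u : ℝ) : ‖character t u‖ = 1 := by
  rw [character_apply, Complex.norm_exp]
  simp

theorem norm_character_le (t : ℝ) : ‖character t‖ ≤ 1 := by
  rw [BoundedContinuousFunction.norm_le zero_le_one]
  intro u
  exact (norm_character_apply t u).le

theorem wave_zero (D : LineCalculus H) : D.wave 0 = 1 := by
  unfold wave
  rw [character_zero, map_one]

theorem wave_add (D : LineCalculus H) (s t : ℝ) : D.wave (s + t) = D.wave s * D.wave t := by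
  unfold wave
  rw [character_add, map_mul]

theorem wave_neg_mul (D : LineCalculus H) (t : ℝ) : D.wave (-t) * D.wave t = 1 := by
  rw [← wave_add, neg_add_cancel, wave_zero]

theorem wave_mul_neg (D : LineCalculus H) (t : ℝ) : D.wave t * D.wave (-t) = 1 := by
  rw [← wave_add, add_neg_cancel, wave_zero]

theorem wave_neg_apply_wave (D : LineCalculus H) (t : ℝ) (x : H) :
    D.wave (-t) (D.wave t x) = x := by
  have h := wave_neg_mul D t
  exact congrArg (fun A : H →L[ℂ] H => A x) h

theorem wave_apply_wave_neg (D : LineCalculus H) (t : ℝ) (x : H) :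
    D.wave t (D.wave (-t) x) = x := by
  have h := wave_mul_neg D t
  exact congrArg (fun A : H →L[ℂ] H => A x) h

theorem wave_add_apply (D : LineCalculus H) (s t : ℝ) (x : H) :
    D.wave (s + t) x = D.wave s (D.wave t x) := by
  rw [wave_add]; rfl

theorem star_wave (D : LineCalculus H) (t : ℝ) : star (D.wave t) = D.wave (-t) := by
  unfold wave
  rw [← map_star, star_character]

theorem adjoint_wave (D : LineCalculus H) (t : ℝ) :
    ContinuousLinearMap.adjoint (D.wave t) = D.wave (-t) := by
  rw [← ContinuousLinearMap.star_eq_adjoint, star_wave]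

theorem star_apply' (D : LineCalculus H) (f : BoundedContinuousFunction ℝ ℂ) :
    star (D.apply f) = D.apply (star f) := (map_star D.apply f).symm

theorem adjoint_apply (D : LineCalculus H) (f : BoundedContinuousFunction ℝ ℂ) :
    ContinuousLinearMap.adjoint (D.apply f) = D.apply (star f) := by
  rw [← ContinuousLinearMap.star_eq_adjoint, star_apply']

theorem inner_wave_wave (D : LineCalculus H) (t : ℝ) (x y : H) :
    ⟪D.wave t x, D.wave t y⟫_ℂ = ⟪x, y⟫_ℂ := by
  rw [← ContinuousLinearMap.adjoint_inner_right, adjoint_wave, wave_neg_apply_wave]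

theorem norm_wave_apply (D : LineCalculus H) (t : ℝ) (x : H) : ‖D.wave t x‖ = ‖x‖ := by
  have h := inner_wave_wave D t x x
  rw [inner_self_eq_norm_sq_to_K, inner_self_eq_norm_sq_to_K] at h
  have h2 : ‖D.wave t x‖ ^ 2 = ‖x‖ ^ 2 := by exact_mod_cast h
  exact (sq_eq_sq₀ (norm_nonneg _) (norm_nonneg _)).mp h2

theorem norm_wave_le (D : LineCalculus H) (t : ℝ) : ‖D.wave t‖ ≤ 1 :=
  (norm_apply_le D _).trans (norm_character_le t)

theorem wave_apply_comm (D : LineCalculus H) (t : ℝ) (f : BoundedContinuousFunction ℝ ℂ) (x : H) :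
    D.wave t (D.apply f x) = D.apply f (D.wave t x) :=
  apply_apply_comm D (character t) f x

theorem wave_wave_comm (D : LineCalculus H) (s t : ℝ) (x : H) :
    D.wave s (D.wave t x) = D.wave t (D.wave s x) :=
  apply_apply_comm D (character s) (character t) x

/-- The calculus as a continuous linear map. -/
noncomputable def applyCLM (D : LineCalculus H) :
    BoundedContinuousFunction ℝ ℂ →L[ℂ] (H →L[ℂ] H) :=
  LinearMap.mkContinuous (D.apply.toAlgHom.toLinearMap) 1
    (fun f => by simpa using norm_apply_le D f)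

@[simp] theorem applyCLM_apply (D : LineCalculus H) (f : BoundedContinuousFunction ℝ ℂ) :
    applyCLM D f = D.apply f := rfl

/-- `g ↦ g(D) x` as a continuous linear map. -/
noncomputable def applyAtCLM (D : LineCalculus H) (x : H) :
    BoundedContinuousFunction ℝ ℂ →L[ℂ] H :=
  (ContinuousLinearMap.apply ℂ H x).comp (applyCLM D)

@[simp] theorem applyAtCLM_apply (D : LineCalculus H) (x : H)
    (f : BoundedContinuousFunction ℝ ℂ) : applyAtCLM D x f = D.apply f x := rfl

/-! ### A2: cut-offs -/

/-- The real cut-off profile: `1` on `[-m, m]`, `0` off `(-(m+1), m+1)`. -/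
noncomputable def cutR (m : ℕ) (u : ℝ) : ℝ := max 0 (min 1 ((m : ℝ) + 1 - |u|))

theorem cutR_nonneg (m : ℕ) (u : ℝ) : 0 ≤ cutR m u := le_max_left _ _

theorem cutR_le_one (m : ℕ) (u : ℝ) : cutR m u ≤ 1 := max_le zero_le_one (min_le_left _ _)

theorem cutR_eq_one (m : ℕ) {u : ℝ} (hu : |u| ≤ m) : cutR m u = 1 := by
  unfold cutR
  rw [min_eq_left (by linarith), max_eq_right zero_le_one]

theorem cutR_eq_zero (m : ℕ) {u : ℝ} (hu : (m : ℝ) + 1 ≤ |u|) : cutR m u = 0 := by
  unfold cutR
  rw [max_eq_left]
  exact (min_le_right _ _).trans (by linarith)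

theorem continuous_cutR (m : ℕ) : Continuous (cutR m) := by
  unfold cutR
  fun_prop

/-- The cut-off `χ_m` as a bounded continuous complex function. -/
noncomputable def cut (m : ℕ) : BoundedContinuousFunction ℝ ℂ :=
  BoundedContinuousFunction.ofNormedAddCommGroup (fun u => ((cutR m u : ℝ) : ℂ))
    (Complex.continuous_ofReal.comp (continuous_cutR m)) 1 (fun u => by
      rw [Complex.norm_real, Real.norm_eq_abs, abs_of_nonneg (cutR_nonneg m u)]
      exact cutR_le_one m u)

theorem cut_apply (m : ℕ) (u : ℝ) : cut m u = ((cutR m u : ℝ) : ℂ) := rfl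

theorem norm_cut_apply_le (m : ℕ) (u : ℝ) : ‖cut m u‖ ≤ 1 := by
  rw [cut_apply, Complex.norm_real, Real.norm_eq_abs, abs_of_nonneg (cutR_nonneg m u)]
  exact cutR_le_one m u

theorem norm_cut_le (m : ℕ) : ‖cut m‖ ≤ 1 := by
  rw [BoundedContinuousFunction.norm_le zero_le_one]
  exact norm_cut_apply_le m

theorem cut_eq_one (m : ℕ) {u : ℝ} (hu : |u| ≤ m) : cut m u = 1 := by
  rw [cut_apply, cutR_eq_one m hu]; simp

theorem cut_eq_zero (m : ℕ) {u : ℝ} (hu : (m : ℝ) + 1 ≤ |u|) : cut m u = 0 := by
  rw [cut_apply, cutR_eq_zero m hu]; simp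

theorem hasCompactSupport_cut (m : ℕ) : HasCompactSupport (cut m : ℝ → ℂ) := by
  refine HasCompactSupport.intro (isCompact_closedBall (0 : ℝ) ((m : ℝ) + 1)) ?_
  intro u hu
  apply cut_eq_zero
  rw [Metric.mem_closedBall, Real.dist_eq, sub_zero, not_le] at hu
  exact hu.le

theorem star_cut (m : ℕ) : star (cut m) = cut m := by
  ext u
  simp [cut_apply, Complex.conj_ofReal]

theorem cut_mul_eq_self_of_tsupport {f : BoundedContinuousFunction ℝ ℂ} {R : ℝ}
    (hR : tsupport (f : ℝ → ℂ) ⊆ Metric.closedBall 0 R) {m : ℕ} (hm : R ≤ m) :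
    cut m * f = f := by
  ext u
  rw [BoundedContinuousFunction.coe_mul, Pi.mul_apply]
  by_cases hu : u ∈ tsupport (f : ℝ → ℂ)
  · have h1 := hR hu
    rw [Metric.mem_closedBall, Real.dist_eq, sub_zero] at h1
    rw [cut_eq_one m (h1.trans hm), one_mul]
  · rw [image_eq_zero_of_notMem_tsupport hu, mul_zero]

theorem norm_apply_cut_le (D : LineCalculus H) (m : ℕ) (x : H) : ‖D.apply (cut m) x‖ ≤ ‖x‖ := by
  refine (norm_apply_apply_le D (cut m) x).trans ?_
  have := mul_le_mul_of_nonneg_right (norm_cut_le m) (norm_nonneg x)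
  simpa using this

theorem tendsto_apply_cut (D : LineCalculus H) (x : H) :
    Tendsto (fun m : ℕ => D.apply (cut m) x) atTop (𝓝 x) := by
  rw [Metric.tendsto_atTop]
  intro ε hε
  obtain ⟨f, hfc, hf⟩ := D.window x (ε / 2) (by positivity)
  obtain ⟨R, hR⟩ := hfc.isCompact.isBounded.subset_closedBall (0 : ℝ)
  refine ⟨⌈R⌉₊, fun m hm => ?_⟩
  have hRm : R ≤ m := (Nat.le_ceil R).trans (by exact_mod_cast hm)
  have hcf : D.apply (cut m) (D.apply f x) = D.apply f x := by
    rw [← apply_mul_apply, cut_mul_eq_self_of_tsupport hR hRm]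
  have hdecomp : D.apply (cut m) x - x
      = D.apply (cut m) (x - D.apply f x) + (D.apply f x - x) := by
    rw [map_sub, hcf]; abel
  rw [dist_eq_norm, hdecomp]
  calc ‖D.apply (cut m) (x - D.apply f x) + (D.apply f x - x)‖
      ≤ ‖D.apply (cut m) (x - D.apply f x)‖ + ‖D.apply f x - x‖ := norm_add_le _ _
    _ ≤ ‖x - D.apply f x‖ + ‖D.apply f x - x‖ := by
        gcongr
        exact norm_apply_cut_le D m _
    _ < ε / 2 + ε / 2 := by
        rw [norm_sub_rev x]
        exact add_lt_add hf hf
    _ = ε := by ring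

/-! ### A3: strong continuity of the wave group -/

theorem norm_character_sub_le (t t' u : ℝ) :
    ‖character t u - character t' u‖ ≤ |t - t'| * |u| := by
  have h1 : character t u = character t' u * character (t - t') u := by
    have := character_add t' (t - t')
    rw [add_sub_cancel] at this
    rw [this]; rfl
  rw [h1]
  have h2 : character t' u * character (t - t') u - character t' u
      = character t' u * (character (t - t') u - 1) := by ring
  rw [h2, norm_mul, norm_character_apply, one_mul, character_apply]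
  refine (Real.norm_exp_I_mul_ofReal_sub_one_le).trans ?_
  rw [Real.norm_eq_abs, abs_mul]

theorem dist_cut_mul_character_le (m : ℕ) (t t' : ℝ) :
    dist (cut m * character t) (cut m * character t') ≤ ((m : ℝ) + 1) * |t - t'| := by
  have hm : (0 : ℝ) ≤ (m : ℝ) + 1 := by positivity
  rw [BoundedContinuousFunction.dist_le (mul_nonneg hm (abs_nonneg _))]
  intro u
  rw [dist_eq_norm, BoundedContinuousFunction.coe_mul, BoundedContinuousFunction.coe_mul,
    Pi.mul_apply, Pi.mul_apply, ← mul_sub, norm_mul]
  by_cases hu : (m : ℝ) + 1 ≤ |u|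
  · rw [cut_eq_zero m hu, norm_zero, zero_mul]
    exact mul_nonneg hm (abs_nonneg _)
  · rw [not_le] at hu
    calc ‖cut m u‖ * ‖character t u - character t' u‖
        ≤ 1 * (|t - t'| * |u|) :=
          mul_le_mul (norm_cut_apply_le m u) (norm_character_sub_le t t' u) (norm_nonneg _)
            zero_le_one
      _ ≤ ((m : ℝ) + 1) * |t - t'| := by
          rw [one_mul, mul_comm]
          exact mul_le_mul_of_nonneg_right hu.le (abs_nonneg _)

theorem continuous_cut_mul_character (m : ℕ) :
    Continuous (fun t : ℝ => cut m * character t) := by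
  have hL : LipschitzWith (⟨(m : ℝ) + 1, by positivity⟩ : NNReal)
      (fun t : ℝ => cut m * character t) := by
    refine LipschitzWith.of_dist_le_mul (fun t t' => ?_)
    rw [Real.dist_eq]
    exact dist_cut_mul_character_le m t t'
  exact hL.continuous

theorem apply_cut_mul_character (D : LineCalculus H) (m : ℕ) (t : ℝ) (x : H) :
    D.apply (cut m * character t) x = D.wave t (D.apply (cut m) x) := by
  rw [mul_comm, apply_mul_apply]; rfl

theorem apply_cut_mul_character' (D : LineCalculus H) (m : ℕ) (t : ℝ) (x : H) :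
    D.apply (cut m * character t) x = D.apply (cut m) (D.wave t x) := by
  rw [apply_mul_apply]; rfl

theorem continuous_apply_cut_mul_character (D : LineCalculus H) (m : ℕ) (x : H) :
    Continuous (fun t : ℝ => D.apply (cut m * character t) x) :=
  (applyAtCLM D x).continuous.comp (continuous_cut_mul_character m)

theorem continuous_wave_apply (D : LineCalculus H) (x : H) :
    Continuous (fun t : ℝ => D.wave t x) := by
  have hunif : TendstoUniformly (fun (m : ℕ) (t : ℝ) => D.apply (cut m * character t) x)
      (fun t => D.wave t x) atTop := by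
    rw [Metric.tendstoUniformly_iff]
    intro ε hε
    have h := (Metric.tendsto_atTop.mp (tendsto_apply_cut D x)) ε hε
    obtain ⟨N, hN⟩ := h
    filter_upwards [eventually_ge_atTop N] with m hm t
    rw [apply_cut_mul_character, dist_comm, dist_eq_norm, ← map_sub, norm_wave_apply,
      ← dist_eq_norm]
    exact hN m hm
  exact hunif.continuous (Frequently.of_forall (fun m => continuous_apply_cut_mul_character D m x))

/-! ### A4: spectral subspaces -/

theorem supportedIn_zero (D : LineCalculus H) (K : Set ℝ) : D.SupportedIn K (0 : H) :=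
  fun g _ => map_zero (D.apply g)

theorem supportedIn_add (D : LineCalculus H) {K : Set ℝ} {x y : H}
    (hx : D.SupportedIn K x) (hy : D.SupportedIn K y) : D.SupportedIn K (x + y) :=
  fun f hf => by rw [map_add, hx f hf, hy f hf, add_zero]

theorem supportedIn_smul (D : LineCalculus H) {K : Set ℝ} {x : H} (c : ℂ)
    (hx : D.SupportedIn K x) : D.SupportedIn K (c • x) :=
  fun f hf => by rw [map_smul, hx f hf, smul_zero]

theorem supportedIn_neg (D : LineCalculus H) {K : Set ℝ} {x : H}
    (hx : D.SupportedIn K x) : D.SupportedIn K (-x) :=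
  fun f hf => by rw [map_neg, hx f hf, neg_zero]

theorem supportedIn_sub (D : LineCalculus H) {K : Set ℝ} {x y : H}
    (hx : D.SupportedIn K x) (hy : D.SupportedIn K y) : D.SupportedIn K (x - y) :=
  fun f hf => by rw [map_sub, hx f hf, hy f hf, sub_zero]

theorem supportedIn_sum (D : LineCalculus H) {K : Set ℝ} {ι : Type*} (s : Finset ι)
    (x : ι → H) (hx : ∀ i ∈ s, D.SupportedIn K (x i)) : D.SupportedIn K (∑ i ∈ s, x i) :=
  fun f hf => by
    rw [map_sum]
    exact Finset.sum_eq_zero (fun i hi => hx i hi f hf)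

theorem isClosed_supportedIn (D : LineCalculus H) (K : Set ℝ) :
    IsClosed {x : H | D.SupportedIn K x} := by
  have : {x : H | D.SupportedIn K x}
      = ⋂ (f : BoundedContinuousFunction ℝ ℂ) (_ : ∀ u ∈ K, f u = 0),
          {x : H | D.apply f x = 0} := by
    ext x
    simp only [Set.mem_iInter]
    rfl
  rw [this]
  exact isClosed_iInter fun g => isClosed_iInter fun _ =>
    isClosed_eq (D.apply g).continuous continuous_const

theorem SupportedIn.mono {D : LineCalculus H} {K K' : Set ℝ} {x : H} (hKK' : K ⊆ K')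
    (hx : D.SupportedIn K x) : D.SupportedIn K' x :=
  fun f hf => hx f (fun u hu => hf u (hKK' hu))

theorem supportedIn_apply (D : LineCalculus H) {K : Set ℝ} {x : H}
    (g : BoundedContinuousFunction ℝ ℂ) (hx : D.SupportedIn K x) :
    D.SupportedIn K (D.apply g x) :=
  fun f hf => by rw [apply_apply_comm, hx f hf, map_zero]

theorem supportedIn_wave (D : LineCalculus H) {K : Set ℝ} {x : H} (t : ℝ)
    (hx : D.SupportedIn K x) : D.SupportedIn K (D.wave t x) :=
  supportedIn_apply D (character t) hx

theorem apply_congr_of_supportedIn (D : LineCalculus H) {K : Set ℝ} {x : H}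
    {f g : BoundedContinuousFunction ℝ ℂ} (hfg : ∀ u ∈ K, f u = g u)
    (hx : D.SupportedIn K x) : D.apply f x = D.apply g x := by
  have h := hx (f - g) (fun u hu => by
    rw [BoundedContinuousFunction.coe_sub, Pi.sub_apply, hfg u hu, sub_self])
  have h' : D.apply f x - D.apply g x = 0 := by
    rw [← h, map_sub]; rfl
  exact sub_eq_zero.mp h'

theorem apply_eq_self_of_supportedIn (D : LineCalculus H) {K : Set ℝ} {x : H}
    {f : BoundedContinuousFunction ℝ ℂ} (hf : ∀ u ∈ K, f u = 1)
    (hx : D.SupportedIn K x) : D.apply f x = x := by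
  have h := apply_congr_of_supportedIn D (f := f) (g := 1) (fun u hu => by
    rw [hf u hu]; rfl) hx
  rw [h, map_one]; rfl

theorem supportedIn_apply_of_vanish (D : LineCalculus H) {K : Set ℝ}
    {f : BoundedContinuousFunction ℝ ℂ} (hf : ∀ u, u ∉ K → f u = 0) (y : H) :
    D.SupportedIn K (D.apply f y) := by
  intro g hg
  rw [← apply_mul_apply]
  have : g * f = 0 := by
    ext u
    rw [BoundedContinuousFunction.coe_mul, Pi.mul_apply]
    by_cases hu : u ∈ K
    · rw [hg u hu, zero_mul]; rfl
    · rw [hf u hu, mul_zero]; rfl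
  rw [this, map_zero]; rfl

/-- Clamp of `f` to the ball of radius `c > 0`. -/
noncomputable def clamp (c : ℝ) (hc : 0 < c) (f : BoundedContinuousFunction ℝ ℂ) :
    BoundedContinuousFunction ℝ ℂ :=
  BoundedContinuousFunction.ofNormedAddCommGroup
    (fun u => (((c / max c ‖f u‖ : ℝ)) : ℂ) * f u)
    (by
      have h1 : Continuous (fun u : ℝ => max c ‖f u‖) :=
        continuous_const.max (continuous_norm.comp f.continuous)
      have h2 : Continuous (fun u : ℝ => c / max c ‖f u‖) :=
        continuous_const.div h1 (fun u => (lt_of_lt_of_le hc (le_max_left _ _)).ne')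
      exact (Complex.continuous_ofReal.comp h2).mul f.continuous)
    c
    (fun u => by
      have hpos : 0 < max c ‖f u‖ := lt_of_lt_of_le hc (le_max_left _ _)
      rw [norm_mul, Complex.norm_real, Real.norm_eq_abs, abs_of_nonneg (div_nonneg hc.le hpos.le),
        div_mul_eq_mul_div, div_le_iff₀ hpos]
      exact mul_le_mul_of_nonneg_left (le_max_right _ _) hc.le)

theorem clamp_apply (c : ℝ) (hc : 0 < c) (f : BoundedContinuousFunction ℝ ℂ) (u : ℝ) :
    clamp c hc f u = (((c / max c ‖f u‖ : ℝ)) : ℂ) * f u := rfl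

theorem norm_clamp_le (c : ℝ) (hc : 0 < c) (f : BoundedContinuousFunction ℝ ℂ) :
    ‖clamp c hc f‖ ≤ c := by
  rw [BoundedContinuousFunction.norm_le hc.le]
  intro u
  have hpos : 0 < max c ‖f u‖ := lt_of_lt_of_le hc (le_max_left _ _)
  rw [clamp_apply, norm_mul, Complex.norm_real, Real.norm_eq_abs,
    abs_of_nonneg (div_nonneg hc.le hpos.le), div_mul_eq_mul_div, div_le_iff₀ hpos]
  exact mul_le_mul_of_nonneg_left (le_max_right _ _) hc.le

theorem clamp_eq_self (c : ℝ) (hc : 0 < c) (f : BoundedContinuousFunction ℝ ℂ) {u : ℝ}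
    (hu : ‖f u‖ ≤ c) : clamp c hc f u = f u := by
  rw [clamp_apply, max_eq_left hu, div_self hc.ne']
  simp

theorem norm_apply_le_of_supportedIn (D : LineCalculus H) {K : Set ℝ} {x : H}
    {f : BoundedContinuousFunction ℝ ℂ} {c : ℝ} (hc : 0 ≤ c) (hf : ∀ u ∈ K, ‖f u‖ ≤ c)
    (hx : D.SupportedIn K x) : ‖D.apply f x‖ ≤ c * ‖x‖ := by
  rcases hc.eq_or_lt with hc0 | hcpos
  · subst hc0
    have h := hx f (fun u hu => by simpa using hf u hu)
    rw [h, norm_zero, zero_mul]
  · have h := apply_congr_of_supportedIn D (f := f) (g := clamp c hcpos f)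
      (fun u hu => (clamp_eq_self c hcpos f (hf u hu)).symm) hx
    rw [h]
    exact (norm_apply_apply_le D _ x).trans
      (mul_le_mul_of_nonneg_right (norm_clamp_le c hcpos f) (norm_nonneg x))

end Crest.Agent.Helper3.S0112
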