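/-
helper3 — S0112 (row 84), package A5 of notes/s0112/PROOF.md (second, independent track):
the Fourier representation  F(D) x = ∫ f(t) • exp(itD) x dt  for an integrable kernel `f`
with `F u = ∫ f t * exp(i t u)`.  Mathlib + Prelude + `Helper3/S0112/Calc.lean` only.
-/
import Mathlib
import Crest.Prelude.Def_ModularData
import Crest.Agent.Helper3.S0112.Calc

set_option autoImplicit false

open Filter MeasureTheory Topology
open scoped InnerProductSpace

namespace Crest.Agent.Helper3.S0112

open Crest.OpAlg Crest.OpAlg.LineCalculus

variable {H : Type*} [NormedAddCommGroup H] [InnerProductSpace ℂ H] [CompleteSpace H]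

theorem integrable_smul_wave (D : LineCalculus H) {f : ℝ → ℂ} (hf : Integrable f) (x : H) :
    Integrable (fun t : ℝ => f t • D.wave t x) := by
  refine Integrable.mono' (hf.norm.mul_const ‖x‖)
    (hf.aestronglyMeasurable.smul (continuous_wave_apply D x).aestronglyMeasurable) ?_
  refine Eventually.of_forall (fun t => ?_)
  rw [norm_smul, norm_wave_apply]

theorem norm_cut_mul_character_le (m : ℕ) (t : ℝ) : ‖cut m * character t‖ ≤ 1 := by
  refine (norm_mul_le _ _).trans ?_
  calc ‖cut m‖ * ‖character t‖ ≤ 1 * 1 :=
        mul_le_mul (norm_cut_le m) (norm_character_le t) (norm_nonneg _) zero_le_one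
    _ = 1 := one_mul 1

theorem integrable_smul_cut_mul_character {f : ℝ → ℂ} (hf : Integrable f) (m : ℕ) :
    Integrable (fun t : ℝ => f t • (cut m * character t)) := by
  refine Integrable.mono' hf.norm
    (hf.aestronglyMeasurable.smul (continuous_cut_mul_character m).aestronglyMeasurable) ?_
  refine Eventually.of_forall (fun t => ?_)
  rw [norm_smul]
  calc ‖f t‖ * ‖cut m * character t‖ ≤ ‖f t‖ * 1 :=
        mul_le_mul_of_nonneg_left (norm_cut_mul_character_le m t) (norm_nonneg _)
    _ = ‖f t‖ := mul_one _

theorem integral_smul_cut_mul_character {f : ℝ → ℂ} (hf : Integrable f)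
    (F : BoundedContinuousFunction ℝ ℂ)
    (hF : ∀ u, F u = ∫ t, f t * Complex.exp (Complex.I * ((t * u : ℝ) : ℂ))) (m : ℕ) :
    ∫ t, f t • (cut m * character t) = cut m * F := by
  ext u
  have h1 := ContinuousLinearMap.integral_comp_comm
    (BoundedContinuousFunction.evalCLM ℂ u) (integrable_smul_cut_mul_character hf m)
  have h2 : (∫ t, f t • (cut m * character t)) u
      = ∫ t, (BoundedContinuousFunction.evalCLM ℂ u) (f t • (cut m * character t)) := h1.symm
  rw [h2, BoundedContinuousFunction.coe_mul, Pi.mul_apply, hF u, ← integral_const_mul]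
  refine integral_congr_ae (Eventually.of_forall (fun t => ?_))
  simp only [BoundedContinuousFunction.evalCLM_apply, BoundedContinuousFunction.coe_smul,
    BoundedContinuousFunction.coe_mul, Pi.mul_apply, smul_eq_mul, character_apply]
  ring

/-- **A5 (Fourier representation).** -/
theorem apply_eq_integral_wave (D : LineCalculus H) (f : ℝ → ℂ) (hf : Integrable f)
    (F : BoundedContinuousFunction ℝ ℂ)
    (hF : ∀ u, F u = ∫ t, f t * Complex.exp (Complex.I * ((t * u : ℝ) : ℂ))) (x : H) :
    D.apply F x = ∫ t, f t • D.wave t x := by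
  have key : ∀ m : ℕ, D.apply (cut m) (D.apply F x) = D.apply (cut m) (∫ t, f t • D.wave t x) := by
    intro m
    have h1 : D.apply (cut m) (D.apply F x) = applyAtCLM D x (∫ t, f t • (cut m * character t)) := by
      rw [integral_smul_cut_mul_character hf F hF m, applyAtCLM_apply, apply_mul_apply]
    have h2 := ContinuousLinearMap.integral_comp_comm (applyAtCLM D x)
      (integrable_smul_cut_mul_character hf m)
    have h3 := ContinuousLinearMap.integral_comp_comm (D.apply (cut m))
      (integrable_smul_wave D hf x)
    rw [h1, ← h2, ← h3]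
    refine integral_congr_ae (Eventually.of_forall (fun t => ?_))
    simp only [map_smul, applyAtCLM_apply]
    rw [apply_cut_mul_character']
  have hlim1 := tendsto_apply_cut D (D.apply F x)
  have hlim2 := tendsto_apply_cut D (∫ t, f t • D.wave t x)
  simp only [key] at hlim1
  exact tendsto_nhds_unique hlim1 hlim2

end Crest.Agent.Helper3.S0112
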